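import Vale.Agent.P088.R2.H551.V.Spec
import Vale.Agent.P088.H924.Frame

/-!
# P088, row V-PEQ: the equation of `P = F* F`
-/

open MeasureTheory Set
open scoped ContDiff Matrix

noncomputable section

namespace Vale.Agent.P088.H43

open Vale.Agent.P088.LR Vale.Agent.P088.LR.U Vale.Agent.P088.LR.H158
open Vale.Agent.P088.H924 (smC_HF pdm_adj sum_swap)

variable {n N : ℕ}

theorem cdF_KF (A : Cn n N) (F : LR.U.MC n N) (i : Fin n) (x : V n) (hA : SmU A) (hF : SmC F) :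
    pdm i (LR.U.PF F) x + LR.U.KF A F i x = (2 : ℂ) • ((F x)ᴴ * LR.U.cdC A i F x) := by
  have h := pdm_adj hA hF hF i x
  have e : pdm i (LR.U.PF F) x = (LR.U.cdC A i F x)ᴴ * F x + (F x)ᴴ * LR.U.cdC A i F x := h
  rw [e]
  unfold LR.U.KF
  rw [two_smul]
  abel

theorem cdF_KF' (A : Cn n N) (F : LR.U.MC n N) (i : Fin n) (x : V n) (hA : SmU A) (hF : SmC F) :
    pdm i (LR.U.PF F) x - LR.U.KF A F i x = (2 : ℂ) • ((LR.U.cdC A i F x)ᴴ * F x) := by
  have h := pdm_adj hA hF hF i x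
  have e : pdm i (LR.U.PF F) x = (LR.U.cdC A i F x)ᴴ * F x + (F x)ᴴ * LR.U.cdC A i F x := h
  rw [e]
  unfold LR.U.KF
  rw [two_smul]
  abel

/-- **(V-PEQ)** -/
theorem rowPEQ : PJ.RowPEQ := by
  intro n N Ω _ s hs hsym A hA F hF hdet hL x hx
  have hLx : H924.LF s A F x = 0 := hL x hx
  -- left side
  have h1 : ∀ i, (fun y => ∑ j, (s y i j : ℂ) • pdm j (LR.U.PF F) y) =
      fun y => (H924.HF s A F i y)ᴴ * F y + (F y)ᴴ * H924.HF s A F i y := by
    intro i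
    funext y
    unfold H924.HF
    rw [Matrix.conjTranspose_sum, Finset.sum_mul, Finset.mul_sum, ← Finset.sum_add_distrib]
    refine Finset.sum_congr rfl fun j _ => ?_
    have h := pdm_adj hA hF hF j y
    have e : pdm j (LR.U.PF F) y =
      (H924.cdF A j F y)ᴴ * F y + (F y)ᴴ * H924.cdF A j F y := h
    rw [e, Matrix.conjTranspose_smul, Matrix.smul_mul, Matrix.mul_smul, smul_add]
    simp
  have h2 : ∀ i, pdm i (fun y => ∑ j, (s y i j : ℂ) • pdm j (LR.U.PF F) y) x =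
      ((H924.cdF A i (H924.HF s A F i) x)ᴴ * F x + (H924.HF s A F i x)ᴴ * H924.cdF A i F x) +
        ((H924.cdF A i F x)ᴴ * H924.HF s A F i x +
          (F x)ᴴ * H924.cdF A i (H924.HF s A F i) x) := by
    intro i
    rw [h1 i]
    have hH := smC_HF hs hA hF i
    rw [← pdm_adj hA hF hH, ← pdm_adj hA hH hF]
    ext a b
    simp only [pdm, Matrix.of_apply, Matrix.add_apply]
    exact pd_add (dfa (SmC_mul (SmC_star hH) hF a b) x) (dfa (SmC_mul (SmC_star hF) hH a b) x) i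
  have h3 : ∑ i, (H924.cdF A i F x)ᴴ * H924.HF s A F i x =
      ∑ i, (H924.HF s A F i x)ᴴ * H924.cdF A i F x := by
    unfold H924.HF
    simp only [Finset.mul_sum, Matrix.conjTranspose_sum, Finset.sum_mul,
      Matrix.conjTranspose_smul, Matrix.mul_smul, Matrix.smul_mul]
    have e : ∀ i j, star (s x i j : ℂ) = (s x i j : ℂ) := fun i j => by simp
    simp only [e]
    exact sum_swap (s x) (hsym x) fun i j => (H924.cdF A i F x)ᴴ * H924.cdF A j F x
  have h4 : ∑ i, pdm i (fun y => ∑ j, (s y i j : ℂ) • pdm j (LR.U.PF F) y) x =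
      (2 : ℂ) • ∑ i, ∑ j, (s x i j : ℂ) • ((H924.cdF A i F x)ᴴ * H924.cdF A j F x) := by
    simp only [h2, Finset.sum_add_distrib]
    rw [← h3]
    have e1 : ∑ i, (H924.cdF A i (H924.HF s A F i) x)ᴴ * F x = (H924.LF s A F x)ᴴ * F x := by
      unfold H924.LF
      rw [Matrix.conjTranspose_sum, Finset.sum_mul]
    have e2 : ∑ i, (F x)ᴴ * H924.cdF A i (H924.HF s A F i) x = (F x)ᴴ * H924.LF s A F x := by
      unfold H924.LF
      rw [Finset.mul_sum]
    rw [e1, e2, hLx]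
    have e3 : ∑ i, (H924.cdF A i F x)ᴴ * H924.HF s A F i x =
        ∑ i, ∑ j, (s x i j : ℂ) • ((H924.cdF A i F x)ᴴ * H924.cdF A j F x) := by
      unfold H924.HF
      simp only [Finset.mul_sum, Matrix.mul_smul]
    rw [e3, two_smul]
    simp
  rw [h4]
  -- right side
  have hu : IsUnit (F x).det := hdet x
  have hu' : IsUnit ((F x)ᴴ).det := by
    rw [Matrix.det_conjTranspose]
    exact hu.star
  have hinv : (LR.U.PF F x)⁻¹ = (F x)⁻¹ * ((F x)ᴴ)⁻¹ := by
    unfold LR.U.PF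
    rw [Matrix.mul_inv_rev]
  have h5 : ∀ i j, (pdm i (LR.U.PF F) x - LR.U.KF A F i x) * (LR.U.PF F x)⁻¹ *
      (pdm j (LR.U.PF F) x + LR.U.KF A F j x) =
      (4 : ℂ) • ((H924.cdF A i F x)ᴴ * H924.cdF A j F x) := by
    intro i j
    rw [cdF_KF A F j x hA hF, cdF_KF' A F i x hA hF, hinv, Matrix.smul_mul, Matrix.smul_mul,
      Matrix.mul_smul, smul_smul]
    have e : (LR.U.cdC A i F x)ᴴ * F x * ((F x)⁻¹ * ((F x)ᴴ)⁻¹) *
        ((F x)ᴴ * LR.U.cdC A j F x) = (H924.cdF A i F x)ᴴ * H924.cdF A j F x := by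
      calc (LR.U.cdC A i F x)ᴴ * F x * ((F x)⁻¹ * ((F x)ᴴ)⁻¹) * ((F x)ᴴ * LR.U.cdC A j F x)
          = (LR.U.cdC A i F x)ᴴ * (F x * (F x)⁻¹) * ((((F x)ᴴ)⁻¹ * (F x)ᴴ) *
            LR.U.cdC A j F x) := by
              simp only [Matrix.mul_assoc]
        _ = (H924.cdF A i F x)ᴴ * H924.cdF A j F x := by
              rw [Matrix.mul_nonsing_inv _ hu, Matrix.nonsing_inv_mul _ hu', Matrix.mul_one,
                Matrix.one_mul]
              rfl
    rw [e]
    norm_num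
  have h6 : ∑ i, ∑ j, (s x i j : ℂ) • ((pdm i (LR.U.PF F) x - LR.U.KF A F i x) *
      (LR.U.PF F x)⁻¹ * (pdm j (LR.U.PF F) x + LR.U.KF A F j x)) =
      (4 : ℂ) • ∑ i, ∑ j, (s x i j : ℂ) • ((H924.cdF A i F x)ᴴ * H924.cdF A j F x) := by
    rw [Finset.smul_sum]
    refine Finset.sum_congr rfl fun i _ => ?_
    rw [Finset.smul_sum]
    refine Finset.sum_congr rfl fun j _ => ?_
    rw [h5 i j, smul_comm]
  rw [h6, smul_smul]
  norm_num

end Vale.Agent.P088.H43
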